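import Vale.Agent.P088.R2.H354.E.PertXY

/-!
# P088, stage 3: zone inequalities, exact transfer and addition

`zone_eq`: where the slots are flat and the weights agree, a flat zone inequality is one for the
given slots. `zone_add`: two zone inequalities whose cut-offs satisfy `χ² = χ₁² + χ₂²`.
-/

open MeasureTheory Set Filter
open scoped ContDiff Topology Matrix

noncomputable section

namespace Vale.Agent.P088.R2.H354.E

open Vale.Agent.P088.LR Vale.Agent.P088.HY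
open Vale.Agent.P088.R2.H961.GW Vale.Agent.P088.R2.H960.W Vale.Agent.P088.R2.H644
open Vale.Agent.P088.R2.H551.E Vale.Agent.P088.R2.H464.Cu Vale.Agent.P088.R2.H973.W
open Vale.Agent.P088.R2.H644.Ch (fx fy)

variable {n : ℕ} {U : Set (VV n)} {s₁ s₂ : MF n} {v₁ v₂ W W₀ χ : VV n → ℝ} {z : VV n}

/-- The data coincide with the flat ones near `z`. -/
structure EqAt (s₁ s₂ : MF n) (v₁ v₂ W W₀ : VV n → ℝ) (z : VV n) : Prop where
  s1 : ∀ᶠ x in 𝓝 z.1, ∀ i j, s₁ x i j = (1 : Matrix (Fin n) (Fin n) ℝ) i j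
  s2 : ∀ᶠ x in 𝓝 z.2, ∀ i j, s₂ x i j = (1 : Matrix (Fin n) (Fin n) ℝ) i j
  v1 : ∀ᶠ w in 𝓝 z, v₁ w = 0
  v2 : ∀ᶠ w in 𝓝 z, v₂ w = 0
  W : ∀ᶠ w in 𝓝 z, W w = W₀ w

/-- All coefficients vanish at `z`. -/
structure Off (χ : VV n → ℝ) (p q : Q8 (VV n)) (z : VV n) : Prop where
  χ : χ z = 0
  p : p.κ z = 0 ∧ p.ζ₁ z = 0 ∧ p.ζ₂ z = 0 ∧ p.ζy z = 0 ∧ p.w₁ z = 0 ∧ p.w₂ z = 0 ∧ p.wb z = 0 ∧
    p.wc z = 0
  q : q.κ z = 0 ∧ q.ζ₁ z = 0 ∧ q.ζ₂ z = 0 ∧ q.ζy z = 0 ∧ q.w₁ z = 0 ∧ q.w₂ z = 0 ∧ q.wb z = 0 ∧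
    q.wc z = 0

/-- Tensors equal to the identity on a neighbourhood. -/
theorem n3_one {s : MF n} {x : V n}
    (h : ∀ᶠ y in 𝓝 x, ∀ i j, s y i j = (1 : Matrix (Fin n) (Fin n) ℝ) i j) :
    ∃ O : Set (V n), IsOpen O ∧ x ∈ O ∧ N3 O 0 0 0 0 s := by
  obtain ⟨O, hO, oO, xO⟩ := eventually_nhds_iff.1 h
  have h0 : ∀ y ∈ O, ∀ i j, (fun y => s y i j) =ᶠ[𝓝 y]
      fun _ => (1 : Matrix (Fin n) (Fin n) ℝ) i j := fun y hy i j => by
    filter_upwards [oO.mem_nhds hy] with w hw using hO w hw i j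
  have h1 : ∀ y ∈ O, ∀ k i j, pd k (fun y => s y i j) =ᶠ[𝓝 y] fun _ => 0 := fun y hy k i j => by
    filter_upwards [oO.mem_nhds hy] with w hw
    unfold pd
    rw [(h0 w hw i j).fderiv_eq]; simp
  have h2 : ∀ y ∈ O, ∀ l k i j, pd l (pd k (fun y => s y i j)) =ᶠ[𝓝 y] fun _ => 0 :=
    fun y hy l k i j => by
    filter_upwards [oO.mem_nhds hy] with w hw
    unfold pd
    have := (h1 w hw k i j).fderiv_eq (𝕜 := ℝ)
    unfold pd at this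
    rw [this]; simp
  refine ⟨O, oO, xO, ⟨fun i j => ?_, fun y hy i j => ?_, fun y hy k i j => ?_,
    fun y hy l k i j => ?_, fun y hy m l k i j => ?_⟩⟩
  · exact contDiffOn_const.congr fun y hy => hO y hy i j
  · rw [hO y hy i j, sub_self, abs_zero]
  · rw [(h1 y hy k i j).eq_of_nhds, abs_zero]
  · rw [(h2 y hy l k i j).eq_of_nhds, abs_zero]
  · have := (h2 y hy l k i j).fderiv_eq (𝕜 := ℝ)
    have e : pd m (pd l (pd k (fun y => s y i j))) y = 0 := by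
      change fderiv ℝ (pd l (pd k (fun y => s y i j))) y _ = 0
      rw [this]; simp
    rw [e, abs_zero]

/-- The bound of the derivatives at `z`. -/
def bz (W W₀ : VV n → ℝ) (z : VV n) : ℝ :=
  1 + ∑ j ∈ Finset.range 5, (Nk j W z + Nk j W₀ z)

theorem bz_one (W W₀ : VV n → ℝ) (z : VV n) : 1 ≤ bz W W₀ z := by
  unfold bz
  have : 0 ≤ ∑ j ∈ Finset.range 5, (Nk j W z + Nk j W₀ z) :=
    Finset.sum_nonneg fun j _ => add_nonneg (Nk_nonneg j W z) (Nk_nonneg j W₀ z)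
  linarith

theorem nk_zero {f : VV n → ℝ} (h : ∀ᶠ w in 𝓝 z, f w = 0) (j : ℕ) : Nk j f z = 0 := by
  have h1 : f =ᶠ[𝓝 z] fun _ => 0 := h
  unfold Nk
  rw [(h1.iteratedFDeriv ℝ j).eq_of_nhds, iteratedFDeriv_fun_zero]
  simp

theorem jt_zero (h : ∀ᶠ w in 𝓝 z, W w = W₀ w) : Jt 4 (bz W W₀ z) 0 W W₀ z := by
  intro j _ h4
  have hj : j ∈ Finset.range 5 := Finset.mem_range.2 (by omega)
  have h1 := Finset.single_le_sum (f := fun j => Nk j W z + Nk j W₀ z)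
    (fun j _ => add_nonneg (Nk_nonneg j W z) (Nk_nonneg j W₀ z)) hj
  have h2 := Nk_nonneg j W z
  have h3 := Nk_nonneg j W₀ z
  unfold bz
  refine ⟨by linarith, by linarith, ?_⟩
  rw [nk_zero]
  filter_upwards [h] with w hw
  rw [hw, sub_self]

section pw

variable (oU : IsOpen U) (hv₁ : Sm U v₁) (hv₂ : Sm U v₂) (hW : Sm U W) (hW₀ : Sm U W₀)
  (hz : z ∈ U) (h : EqAt s₁ s₂ v₁ v₂ W W₀ z)

include oU hW hW₀ hz h

theorem Px_eq (f : VV n → ℝ) : (sx s₁).P v₁ W f z = (fx n).P (fun _ => 0) W₀ f z := by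
  obtain ⟨O, oO, xO, hO⟩ := n3_one h.s1
  have c := cl_sx (v := v₁) oU hO hW hW₀ hz xO oO (by rw [h.v1.self_of_nhds, abs_zero])
    (jt_zero h.W)
  have k := H912.Cw.PN_close (a := f) c le_rfl zero_le_one (bz_one W W₀ z)
  rw [← P_sx, ← P_fx] at k
  have k2 : ((sx s₁).P v₁ W f z - (fx n).P (fun _ => 0) W₀ f z) ^ 2 ≤ 0 := by
    refine k.trans (le_of_eq ?_)
    ring
  have k3 := pow_eq_zero_iff two_ne_zero |>.1 (le_antisymm k2 (sq_nonneg _))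
  linarith

theorem Py_eq (f : VV n → ℝ) : (sy s₂).P v₂ W f z = (fy n).P (fun _ => 0) W₀ f z := by
  obtain ⟨O, oO, xO, hO⟩ := n3_one h.s2
  have c := cl_sy (v := v₂) oU hO hW hW₀ hz xO oO (by rw [h.v2.self_of_nhds, abs_zero])
    (jt_zero h.W)
  have k := H912.Cw.PN_close (a := f) c le_rfl zero_le_one (bz_one W W₀ z)
  rw [← P_sy, ← P_fy] at k
  have k2 : ((sy s₂).P v₂ W f z - (fy n).P (fun _ => 0) W₀ f z) ^ 2 ≤ 0 := by
    refine k.trans (le_of_eq ?_)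
    ring
  have k3 := pow_eq_zero_iff two_ne_zero |>.1 (le_antisymm k2 (sq_nonneg _))
  linarith

theorem Xx_eq (a : VV n → ℝ) (i : Fin n) : Ch.XX (sx s₁) W a z i = Ch.XX (fx n) W₀ a z i := by
  have k := XX_sx (s := s₁) (a := a) oU hW hW₀ hz (jt_zero h.W) i
  rw [zero_mul] at k
  have := abs_nonpos_iff.1 k
  linarith

theorem Xy_eq (a : VV n → ℝ) (i : Fin n) : Ch.XX (sy s₂) W a z i = Ch.XX (fy n) W₀ a z i := by
  have k := XX_sy (s := s₂) (a := a) oU hW hW₀ hz (jt_zero h.W) i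
  rw [zero_mul] at k
  have := abs_nonpos_iff.1 k
  linarith

theorem sqd_eq (a b : VV n → ℝ) : sqd (sx s₁) (sy s₂) v₁ v₂ W a b z =
    sqd (fx n) (fy n) (fun _ => 0) (fun _ => 0) W₀ a b z := by
  unfold sqd
  rw [Px_eq oU hW hW₀ hz h, Px_eq oU hW hW₀ hz h, Py_eq oU hW hW₀ hz h, Py_eq oU hW hW₀ hz h]

theorem dens_eq (p : Q8 (VV n)) (a b : VV n → ℝ) : p.dens (sx s₁) (sy s₂) v₁ v₂ W a b z =
    p.dens (fx n) (fy n) (fun _ => 0) (fun _ => 0) W₀ a b z := by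
  unfold Q8.dens nX nY
  rw [sqd_eq oU hW hW₀ hz h]
  simp only [Xx_eq oU hW hW₀ hz h, Xy_eq oU hW hW₀ hz h]

include hv₁ hv₂

theorem sta_eq (a b : VV n → ℝ) : sta (sx s₁) (sy s₂) v₁ v₂ W a b z =
    sta (fx n) (fy n) (fun _ => 0) (fun _ => 0) W₀ a b z := by
  obtain ⟨O₁, oO₁, xO₁, hO₁⟩ := n3_one h.s1
  obtain ⟨O₂, oO₂, xO₂, hO₂⟩ := n3_one h.s2
  obtain ⟨C, _, H⟩ := sta_flat n (bz W W₀ z)
  have k := H O₁ O₂ U s₁ s₂ v₁ v₂ W W₀ 0 oO₁ oO₂ oU hO₁ hO₂ hv₁ hv₂ hW hW₀ le_rfl zero_le_one z hz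
    xO₁ xO₂ (nk_zero h.v1 1).le (nk_zero h.v2 1).le (jt_zero h.W) a b
  rw [zero_mul, mul_zero] at k
  have := abs_nonpos_iff.1 k
  linarith

end pw

/-- **Exact transfer.** -/
theorem zone_eq {p q : Q8 (VV n)} (oU : IsOpen U) (hv₁ : Sm U v₁) (hv₂ : Sm U v₂) (hW : Sm U W)
    (hW₀ : Sm U W₀) (h : ∀ z ∈ U, EqAt s₁ s₂ v₁ v₂ W W₀ z ∨ Off χ p q z)
    (zone : Zone (fx n) (fy n) U (fun _ => 1) (fun _ => 0) (fun _ => 0) W₀ χ p q) :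
    Zone (sx s₁) (sy s₂) U (fun _ => 1) v₁ v₂ W χ p q := by
  have := Ch.haar_VV (n := n)
  intro a b ha hb
  have k := zone a b ha hb
  have z0 : ∀ (p : Q8 (VV n)) (σ τ : Sl (VV n) (Fin n)) (v₁ v₂ W : VV n → ℝ) (z : VV n),
      (p.κ z = 0 ∧ p.ζ₁ z = 0 ∧ p.ζ₂ z = 0 ∧ p.ζy z = 0 ∧ p.w₁ z = 0 ∧ p.w₂ z = 0 ∧
        p.wb z = 0 ∧ p.wc z = 0) → p.dens σ τ v₁ v₂ W a b z = 0 := by
    intro p σ τ v₁ v₂ W z h
    obtain ⟨h1, h2, h3, h4, h5, h6, h7, h8⟩ := h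
    unfold Q8.dens
    rw [h1, h2, h3, h4, h5, h6, h7, h8]
    ring
  have e1 : In U (fun _ => 1) (p.dens (sx s₁) (sy s₂) v₁ v₂ W a b) =
      In U (fun _ => 1) (p.dens (fx n) (fy n) (fun _ => 0) (fun _ => 0) W₀ a b) := by
    refine In_congr oU fun z hz => ?_
    rcases h z hz with h | h
    · exact dens_eq oU hW hW₀ hz h p a b
    · rw [z0 p _ _ _ _ _ z h.p, z0 p _ _ _ _ _ z h.p]
  have e2 : In U (fun _ => 1) (q.dens (sx s₁) (sy s₂) v₁ v₂ W a b) =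
      In U (fun _ => 1) (q.dens (fx n) (fy n) (fun _ => 0) (fun _ => 0) W₀ a b) := by
    refine In_congr oU fun z hz => ?_
    rcases h z hz with h | h
    · exact dens_eq oU hW hW₀ hz h q a b
    · rw [z0 q _ _ _ _ _ z h.q, z0 q _ _ _ _ _ z h.q]
  have e3 : In U (fun _ => 1) (fun z => χ z ^ 2 * dn (sx s₁) (sy s₂) v₁ v₂ W a b z) =
      In U (fun _ => 1) (fun z => χ z ^ 2 *
        dn (fx n) (fy n) (fun _ => 0) (fun _ => 0) W₀ a b z) := by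
    refine In_congr oU fun z hz => ?_
    rcases h z hz with h | h
    · unfold dn
      rw [sqd_eq oU hW hW₀ hz h, sta_eq oU hv₁ hv₂ hW hW₀ hz h]
    · rw [h.χ]; ring
  rw [e1, e2, e3]
  exact k

/-! ## Addition -/

section add

variable {E ι : Type*} [NormedAddCommGroup E] [NormedSpace ℝ E] [Fintype ι] [MeasureSpace E]
  [FiniteDimensional ℝ E] [BorelSpace E] [(volume : Measure E).IsAddHaarMeasure]

variable {σ τ : Sl E ι} {U : Set E} {θ v₁ v₂ W χ χ₁ χ₂ : E → ℝ} {p₁ p₂ q₁ q₂ : Q8 E}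

omit [NormedSpace ℝ E] [MeasureSpace E] [FiniteDimensional ℝ E] [BorelSpace E]
  [(volume : Measure E).IsAddHaarMeasure] in
theorem ct_add {p q : Q8 E} (hp : p.Ct U) (hq : q.Ct U) : (p + q).Ct U :=
  ⟨hp.κ.add hq.κ, hp.ζ₁.add hq.ζ₁, hp.ζ₂.add hq.ζ₂, hp.ζy.add hq.ζy, hp.w₁.add hq.w₁,
    hp.w₂.add hq.w₂, hp.wb.add hq.wb, hp.wc.add hq.wc⟩

/-- **Addition of zone inequalities.** -/
theorem zone_add (ok : σ.Ok U θ) (ot : τ.Ok U θ) (hv₁ : Sm U v₁) (hv₂ : Sm U v₂) (hW : Sm U W)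
    (h₁ : Sm U χ₁) (h₂ : Sm U χ₂) (hχ : ∀ z ∈ U, χ z ^ 2 = χ₁ z ^ 2 + χ₂ z ^ 2)
    (c₁ : p₁.Ct U) (c₂ : p₂.Ct U) (d₁ : q₁.Ct U) (d₂ : q₂.Ct U)
    (z₁ : Zone σ τ U θ v₁ v₂ W χ₁ p₁ q₁) (z₂ : Zone σ τ U θ v₁ v₂ W χ₂ p₂ q₂) :
    Zone σ τ U θ v₁ v₂ W χ (p₁ + p₂) (q₁ + q₂) := by
  intro a b ha hb
  have hU := ok.op
  have k1 := z₁ a b ha hb
  have k2 := z₂ a b ha hb
  have td := tdn ok ot hv₁ hv₂ hW ha hb
  have e : ∀ p q : Q8 E, p.Ct U → q.Ct U → In U θ ((p + q).dens σ τ v₁ v₂ W a b) =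
      In U θ (p.dens σ τ v₁ v₂ W a b) + In U θ (q.dens σ τ v₁ v₂ W a b) := by
    intro p q hp hq
    rw [← In_add_i (Q8.int_dens ok ot hv₁ hv₂ hW ha hb hp)
      (Q8.int_dens ok ot hv₁ hv₂ hW ha hb hq)]
    exact In_congr hU fun z _ => Q8.dens_add
  have e3 : In U θ (fun z => χ z ^ 2 * dn σ τ v₁ v₂ W a b z) =
      In U θ (fun z => χ₁ z ^ 2 * dn σ τ v₁ v₂ W a b z) +
      In U θ (fun z => χ₂ z ^ 2 * dn σ τ v₁ v₂ W a b z) := by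
    rw [← In_add hU ok.ts (td.mul_left hU (h₁.pow 2)) (td.mul_left hU (h₂.pow 2))]
    refine In_congr hU fun z hz => ?_
    rw [hχ z hz]
    ring
  rw [e p₁ p₂ c₁ c₂, e q₁ q₂ d₁ d₂, e3]
  linarith

end add

end Vale.Agent.P088.R2.H354.E
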