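import Vale.Agent.P088.R2.H354.E.Cong

/-!
# P088, stage 3: zone inequalities, change of the cut-off

`zone_cut`: `|χ² - χ₀²| ≤ δ` and `|sta| ≤ A (|X a|² + |X b|² + a² + b²)` where `δ ≠ 0`: a zone
inequality for `χ₀` gives one for `χ` with the additional cost `δ (1, A, A, 0, A, A, 0, 0)`.
`sta_bd`: such a number `A` exists for bounded data.
-/

open MeasureTheory Set Filter
open scoped ContDiff Topology Matrix

noncomputable section

namespace Vale.Agent.P088.R2.H354.E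

open Vale.Agent.P088.LR Vale.Agent.P088.HY
open Vale.Agent.P088.R2.H961.GW Vale.Agent.P088.R2.H960.W Vale.Agent.P088.R2.H644
open Vale.Agent.P088.R2.H551.E Vale.Agent.P088.R2.H464.Cu Vale.Agent.P088.R2.H973.W

/-! ## A bound of the star density -/

section bd

variable {n : ℕ}

/-- All bounds for all data. -/
theorem sta_pd1 (n : ℕ) (B : ℝ) : ∃ C : ℝ, 0 ≤ C ∧ ∀ p : PD n B,
    |sta (sx p.s₁) (sy p.s₂) p.v₁ p.v₂ p.W p.a p.b p.z| ≤ C * p.q := by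
  have hU : ∀ p : PD n B, (EV n B).U p ⊆ p.U := fun p z hz => hz.1
  have jW : UD (EV n B) 3 (fun p => p.W) (fun p => p.W') :=
    ud_jt dr_le (fun p => p.sW.mono (hU p)) (fun p => p.sW'.mono (hU p)) fun p => p.jW
  have j₁ : UD (EV n B) 0 (fun p => p.v₁) (fun p => p.v₁') :=
    ud_jt dr_le (fun p => p.w₁.mono (hU p)) (fun p => p.w₁'.mono (hU p)) fun p => p.jv₁
  have j₂ : UD (EV n B) 0 (fun p => p.v₂) (fun p => p.v₂') :=
    ud_jt dr_le (fun p => p.w₂.mono (hU p)) (fun p => p.w₂'.mono (hU p)) fun p => p.jv₂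
  have ua : Un (EV n B) (fun p => sx p.s₁) (fun p => sx p.s₁') (fun p => p.W) (fun p => p.W')
      (fun p => p.a) := un_gen (c := Sum.inl) (fun p i f => Dx1 i f p.z)
    (fun p i f => Dx1 i f p.z) (fun p => p.qn.2.2.1) fun p => p.qn.1
  have ub : Un (EV n B) (fun p => sy p.s₂) (fun p => sy p.s₂') (fun p => p.W) (fun p => p.W')
      (fun p => p.b) := un_gen (c := Sum.inr) (fun p i f => Dy1 i f p.z)
    (fun p i f => Dy1 i f p.z) (fun p => p.qn.2.2.2.1) fun p => p.qn.2.1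
  obtain ⟨C, hC, h⟩ := cl_sta sfx sfy jW j₁ j₂ ua ub
  refine ⟨C, hC, fun p => ?_⟩
  have h1 := (h p).1
  have h2 : (EV n B).m p ^ 2 = p.q := Real.sq_sqrt p.qn.2.2.2.2
  rw [h2] at h1
  exact h1

/-- **A bound of the star density** for slots near the flat ones and a bounded weight. -/
theorem sta_bd (n : ℕ) (B : ℝ) : ∃ C : ℝ, 0 ≤ C ∧
    ∀ (O₁ O₂ : Set (V n)) (U : Set (VV n)) (s₁ s₂ : MF n) (v₁ v₂ W : VV n → ℝ),
      IsOpen O₁ → IsOpen O₂ → IsOpen U → N3 O₁ 1 1 1 1 s₁ → N3 O₂ 1 1 1 1 s₂ → Sm U v₁ →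
      Sm U v₂ → Sm U W → ∀ z ∈ U, z.1 ∈ O₁ → z.2 ∈ O₂ → Nk 1 v₁ z ≤ B → Nk 1 v₂ z ≤ B →
      (∀ j, 1 ≤ j → j ≤ 4 → Nk j W z ≤ B) → ∀ a b : VV n → ℝ,
      |sta (sx s₁) (sy s₂) v₁ v₂ W a b z| ≤
        C * (nX (sx s₁) W a z + nX (sy s₂) W b z + (a z ^ 2 + b z ^ 2)) := by
  obtain ⟨C, hC, h⟩ := sta_pd1 n (max B 2)
  refine ⟨C, hC, ?_⟩
  intro O₁ O₂ U s₁ s₂ v₁ v₂ W o₁ o₂ oU h₁ h₂ w₁ w₂ sW z zU z₁ z₂ jv₁ jv₂ jW a b
  have m1 := le_max_left B 2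
  have m2 := le_max_right B 2
  have k0 : ∀ (f : VV n → ℝ) j, Nk j (fun z => f z - f z) z = 0 := fun f j => nk_zero
    (Filter.Eventually.of_forall fun w => sub_self _) j
  have J : ∀ (k : ℕ) (f : VV n → ℝ), (∀ j, 1 ≤ j → j ≤ k → Nk j f z ≤ B) →
      Jt k (max B 2) 1 f f z := fun k f hf j h1 h2 =>
    ⟨(hf j h1 h2).trans m1, (hf j h1 h2).trans m1, by rw [k0 f j]; exact zero_le_one⟩
  have J1 : ∀ f : VV n → ℝ, Nk 1 f z ≤ B → Jt 1 (max B 2) 1 f f z := fun f hf =>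
    J 1 f fun j h1 h2 => by
      have : j = 1 := by omega
      rw [this]; exact hf
  have := h ⟨O₁, O₂, U, s₁, fun _ => 1, s₂, fun _ => 1, v₁, v₁, v₂, v₂, W, W, a, b, z, 1, o₁, o₂,
    oU, N3.s3 z₁ h₁ le_rfl m2, N3.s3 z₂ h₂ le_rfl m2, w₁, w₁, w₂, w₂, sW, sW, zero_le_one,
    le_rfl, zU, z₁, z₂, J1 v₁ jv₁, J1 v₂ jv₂, J 4 W jW⟩
  refine this.trans (le_of_eq ?_)
  unfold PD.q
  ring

end bd

/-! ## Change of the cut-off -/

section cut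

variable {E ι : Type*} [NormedAddCommGroup E] [NormedSpace ℝ E] [Fintype ι] [MeasureSpace E]
  [FiniteDimensional ℝ E] [BorelSpace E] [(volume : Measure E).IsAddHaarMeasure]

variable {σ τ : Sl E ι} {U : Set E} {θ v₁ v₂ W χ χ₀ δ A : E → ℝ} {p q : Q8 E}

/-- The cost of the change of the cut-off. -/
def exQ (δ A : E → ℝ) : Q8 E where
  κ := δ
  ζ₁ z := δ z * A z
  ζ₂ z := δ z * A z
  ζy _ := 0
  w₁ z := δ z * A z
  w₂ z := δ z * A z
  wb _ := 0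
  wc _ := 0

omit [NormedSpace ℝ E] [MeasureSpace E] [FiniteDimensional ℝ E] [BorelSpace E]
  [(volume : Measure E).IsAddHaarMeasure] in
theorem exQ_ct (hδ : ContinuousOn δ U) (hA : ContinuousOn A U) : (exQ δ A).Ct U :=
  ⟨hδ, hδ.mul hA, hδ.mul hA, continuousOn_const, hδ.mul hA, hδ.mul hA, continuousOn_const,
    continuousOn_const⟩

/-- **Change of the cut-off.** -/
theorem zone_cut (ok : σ.Ok U θ) (ot : τ.Ok U θ) (hv₁ : Sm U v₁) (hv₂ : Sm U v₂) (hW : Sm U W)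
    (hχ : Sm U χ) (hχ₀ : Sm U χ₀) (hδ : ContinuousOn δ U) (hA : ContinuousOn A U)
    (hd : ∀ z ∈ U, |χ z ^ 2 - χ₀ z ^ 2| ≤ δ z) (hq : q.Ct U)
    (hs : ∀ a b : E → ℝ, Te U a → Te U b → ∀ z ∈ U, δ z ≠ 0 → |sta σ τ v₁ v₂ W a b z| ≤
      A z * (nX σ W a z + nX τ W b z + (a z ^ 2 + b z ^ 2)))
    (zone : Zone σ τ U θ v₁ v₂ W χ₀ p q) : Zone σ τ U θ v₁ v₂ W χ p (q + exQ δ A) := by
  intro a b ha hb
  have hU := ok.op
  have k := zone a b ha hb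
  have td := tdn ok ot hv₁ hv₂ hW ha hb
  have ce := exQ_ct hδ hA
  have e1 : In U θ ((q + exQ δ A).dens σ τ v₁ v₂ W a b) =
      In U θ (q.dens σ τ v₁ v₂ W a b) + In U θ ((exQ δ A).dens σ τ v₁ v₂ W a b) := by
    rw [← In_add_i (Q8.int_dens ok ot hv₁ hv₂ hW ha hb hq)
      (Q8.int_dens ok ot hv₁ hv₂ hW ha hb ce)]
    exact In_congr hU fun z _ => Q8.dens_add
  have t1 := td.mul_left hU (hχ.pow 2)
  have t2 := td.mul_left hU (hχ₀.pow 2)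
  have e2 : In U θ (fun z => χ₀ z ^ 2 * dn σ τ v₁ v₂ W a b z) ≤
      In U θ (fun z => χ z ^ 2 * dn σ τ v₁ v₂ W a b z) +
        In U θ ((exQ δ A).dens σ τ v₁ v₂ W a b) := by
    rw [← In_add_i (te_int hU ok.ts t1) (Q8.int_dens ok ot hv₁ hv₂ hW ha hb ce)]
    refine In_mono_i hU ok.tp (te_int hU ok.ts t2)
      (int_ad (te_int hU ok.ts t1) (Q8.int_dens ok ot hv₁ hv₂ hW ha hb ce)) fun z hz => ?_
    have d0 : 0 ≤ δ z := (abs_nonneg _).trans (hd z hz)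
    have n1 := Q8.nX_nonneg σ W a z
    have n2 := Q8.nX_nonneg τ W b z
    have s0 := sqd_nonneg σ τ v₁ v₂ W a b z
    have ed : (exQ δ A).dens σ τ v₁ v₂ W a b z = δ z * (sqd σ τ v₁ v₂ W a b z +
        A z * (nX σ W a z + nX τ W b z + (a z ^ 2 + b z ^ 2))) := by
      unfold Q8.dens exQ
      ring
    rw [ed]
    have hmain : |(χ z ^ 2 - χ₀ z ^ 2) * dn σ τ v₁ v₂ W a b z| ≤ δ z * (sqd σ τ v₁ v₂ W a b z +
        A z * (nX σ W a z + nX τ W b z + (a z ^ 2 + b z ^ 2))) := by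
      rw [abs_mul]
      by_cases h0 : δ z = 0
      · have h1 : |χ z ^ 2 - χ₀ z ^ 2| = 0 := le_antisymm ((hd z hz).trans h0.le) (abs_nonneg _)
        rw [h1, h0, zero_mul, zero_mul]
      · have h1 : |dn σ τ v₁ v₂ W a b z| ≤ sqd σ τ v₁ v₂ W a b z +
            A z * (nX σ W a z + nX τ W b z + (a z ^ 2 + b z ^ 2)) := by
          unfold dn
          refine (abs_add_le _ _).trans (add_le_add (le_of_eq (abs_of_nonneg s0)) ?_)
          exact hs a b ha hb z hz h0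
        exact mul_le_mul (hd z hz) h1 (abs_nonneg _) d0
    have k1 := (abs_le.1 hmain).1
    have k2 : (χ z ^ 2 - χ₀ z ^ 2) * dn σ τ v₁ v₂ W a b z =
      χ z ^ 2 * dn σ τ v₁ v₂ W a b z - χ₀ z ^ 2 * dn σ τ v₁ v₂ W a b z := by ring
    linarith
  rw [e1]
  linarith

end cut

end Vale.Agent.P088.R2.H354.E
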