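import Vale.Agent.P088.R2.H551.E.Cur

/-!
# P088, stage 3, EP-PERT: transfer of a zone inequality to nearby slots and weights

If the squares, integrated with the weights `χ²` and `ψ²`, and the star density at a point change
by a small relative amount (plus zero order terms), a zone inequality for `σ₀, τ₀, W₀` gives one
for `σ, τ, W`.
-/

open MeasureTheory Set Filter
open scoped ContDiff Topology

set_option linter.unusedSectionVars false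

noncomputable section

namespace Vale.Agent.P088.R2.H354.E

open Vale.Agent.P088.R2.H961.GW Vale.Agent.P088.R2.H960.W Vale.Agent.P088.R2.H644
open Vale.Agent.P088.R2.H551.E

/-! ## Numbers -/

theorem sq_lo {x x₀ a e : ℝ} (h0 : 0 < e) (h : |x - x₀| ≤ e * |a|) :
    (1 - e) * x ^ 2 - e * a ^ 2 ≤ x₀ ^ 2 := by
  have h1 : (x - x₀) ^ 2 ≤ e ^ 2 * a ^ 2 := by
    have := abs_le_abs_of_nonneg (abs_nonneg (x - x₀)) h
    calc (x - x₀) ^ 2 = |x - x₀| ^ 2 := (sq_abs _).symm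
      _ ≤ (e * |a|) ^ 2 := by gcongr
      _ = e ^ 2 * a ^ 2 := by rw [mul_pow, sq_abs]
  have h2 : 0 ≤ (x - x₀) ^ 2 + e * x₀ ^ 2 - e * (1 - e) * x ^ 2 := by
    have k : (1 + e) * ((x - x₀) ^ 2 + e * x₀ ^ 2 - e * (1 - e) * x ^ 2) =
        ((1 + e) * x₀ - x) ^ 2 + e ^ 3 * x ^ 2 := by ring
    have : 0 ≤ (1 + e) * ((x - x₀) ^ 2 + e * x₀ ^ 2 - e * (1 - e) * x ^ 2) := by
      rw [k]; positivity
    exact nonneg_of_mul_nonneg_right this (by linarith)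
  have h3 : e * ((1 - e) * x ^ 2 - e * a ^ 2) ≤ e * x₀ ^ 2 := by nlinarith
  exact le_of_mul_le_mul_left h3 h0

theorem sq_hi {x x₀ a e : ℝ} (h0 : 0 < e) (h1 : e ≤ 1) (h : |x - x₀| ≤ e * |a|) :
    x₀ ^ 2 ≤ (1 + e) * x ^ 2 + 2 * e * a ^ 2 := by
  have h2 : (x - x₀) ^ 2 ≤ e ^ 2 * a ^ 2 := by
    calc (x - x₀) ^ 2 = |x - x₀| ^ 2 := (sq_abs _).symm
      _ ≤ (e * |a|) ^ 2 := by gcongr
      _ = e ^ 2 * a ^ 2 := by rw [mul_pow, sq_abs]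
  have k : e * ((1 + e) * x ^ 2 - x₀ ^ 2) + (1 + e) * (x - x₀) ^ 2 =
      ((1 + e) * x - x₀) ^ 2 := by ring
  have h3 : e * (x₀ ^ 2) ≤ e * ((1 + e) * x ^ 2) + (1 + e) * (x - x₀) ^ 2 := by
    nlinarith [sq_nonneg ((1 + e) * x - x₀)]
  have h4 : (1 + e) * (x - x₀) ^ 2 ≤ 2 * (e ^ 2 * a ^ 2) := by
    have := mul_nonneg (sq_nonneg e) (sq_nonneg a)
    nlinarith [sq_nonneg (x - x₀)]
  have h5 : e * x₀ ^ 2 ≤ e * ((1 + e) * x ^ 2 + 2 * e * a ^ 2) := by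
    calc e * x₀ ^ 2 ≤ e * ((1 + e) * x ^ 2) + 2 * (e ^ 2 * a ^ 2) := by linarith
      _ = _ := by ring
  exact le_of_mul_le_mul_left h5 h0

variable {E ι : Type*} [NormedAddCommGroup E] [NormedSpace ℝ E] [Fintype ι]

/-! ## First order quantities -/

section pw

variable {σ τ σ₀ τ₀ : Sl E ι} {W W₀ a b : E → ℝ} {z : E} {e : ℝ}

theorem nX_lo (h0 : 0 < e)
    (h : ∀ i, |Ch.XX σ W a z i - Ch.XX σ₀ W₀ a z i| ≤ e * |a z|) :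
    (1 - e) * nX σ W a z - e * (Fintype.card ι * a z ^ 2) ≤ nX σ₀ W₀ a z := by
  unfold nX
  have : (1 - e) * ∑ i, Ch.XX σ W a z i ^ 2 - e * (Fintype.card ι * a z ^ 2) =
      ∑ i, ((1 - e) * Ch.XX σ W a z i ^ 2 - e * a z ^ 2) := by
    rw [Finset.sum_sub_distrib, Finset.mul_sum, Finset.sum_const, Finset.card_univ, nsmul_eq_mul]
    ring
  rw [this]
  exact Finset.sum_le_sum fun i _ => sq_lo h0 (h i)

theorem nX_hi (h0 : 0 < e) (h1 : e ≤ 1)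
    (h : ∀ i, |Ch.XX σ W a z i - Ch.XX σ₀ W₀ a z i| ≤ e * |a z|) :
    nX σ₀ W₀ a z ≤ (1 + e) * nX σ W a z + 2 * e * (Fintype.card ι * a z ^ 2) := by
  unfold nX
  have : (1 + e) * ∑ i, Ch.XX σ W a z i ^ 2 + 2 * e * (Fintype.card ι * a z ^ 2) =
      ∑ i, ((1 + e) * Ch.XX σ W a z i ^ 2 + 2 * e * a z ^ 2) := by
    rw [Finset.sum_add_distrib, Finset.mul_sum, Finset.sum_const, Finset.card_univ, nsmul_eq_mul]
    ring
  rw [this]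
  exact Finset.sum_le_sum fun i _ => sq_hi h0 h1 (h i)

theorem abs_y {x x₀ y y₀ p q : ℝ} (hx : |x - x₀| ≤ e * |p|)
    (hy : |y - y₀| ≤ e * |q|) : |(x - y) - (x₀ - y₀)| ≤ e * |(|p| + |q|)| := by
  have e1 : (x - y) - (x₀ - y₀) = (x - x₀) - (y - y₀) := by ring
  rw [e1, abs_of_nonneg (by positivity : (0 : ℝ) ≤ |p| + |q|)]
  have := abs_sub (x - x₀) (y - y₀)
  nlinarith

theorem sq_ab (p q : ℝ) : (|p| + |q|) ^ 2 ≤ 2 * (p ^ 2 + q ^ 2) := by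
  have h1 : |p| ^ 2 = p ^ 2 := sq_abs p
  have h2 : |q| ^ 2 = q ^ 2 := sq_abs q
  nlinarith [sq_nonneg (|p| - |q|)]

theorem nY_lo (h0 : 0 < e)
    (h : ∀ i, |Ch.XX σ W a z i - Ch.XX σ₀ W₀ a z i| ≤ e * |a z|)
    (h' : ∀ i, |Ch.XX τ W b z i - Ch.XX τ₀ W₀ b z i| ≤ e * |b z|) :
    (1 - e) * nY σ τ W a b z - 2 * e * (Fintype.card ι * (a z ^ 2 + b z ^ 2)) ≤
      nY σ₀ τ₀ W₀ a b z := by
  unfold nY
  have : (1 - e) * ∑ i, (Ch.XX σ W a z i - Ch.XX τ W b z i) ^ 2 -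
      2 * e * (Fintype.card ι * (a z ^ 2 + b z ^ 2)) =
      ∑ i, ((1 - e) * (Ch.XX σ W a z i - Ch.XX τ W b z i) ^ 2 -
        2 * e * (a z ^ 2 + b z ^ 2)) := by
    rw [Finset.sum_sub_distrib, Finset.mul_sum, Finset.sum_const, Finset.card_univ, nsmul_eq_mul]
    ring
  rw [this]
  refine Finset.sum_le_sum fun i _ => ?_
  have k := sq_lo h0 (abs_y (h i) (h' i))
  have k2 := mul_le_mul_of_nonneg_left (sq_ab (a z) (b z)) h0.le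
  linarith

theorem nY_hi (h0 : 0 < e) (h1 : e ≤ 1)
    (h : ∀ i, |Ch.XX σ W a z i - Ch.XX σ₀ W₀ a z i| ≤ e * |a z|)
    (h' : ∀ i, |Ch.XX τ W b z i - Ch.XX τ₀ W₀ b z i| ≤ e * |b z|) :
    nY σ₀ τ₀ W₀ a b z ≤
      (1 + e) * nY σ τ W a b z + 4 * e * (Fintype.card ι * (a z ^ 2 + b z ^ 2)) := by
  unfold nY
  have : (1 + e) * ∑ i, (Ch.XX σ W a z i - Ch.XX τ W b z i) ^ 2 +
      4 * e * (Fintype.card ι * (a z ^ 2 + b z ^ 2)) =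
      ∑ i, ((1 + e) * (Ch.XX σ W a z i - Ch.XX τ W b z i) ^ 2 +
        4 * e * (a z ^ 2 + b z ^ 2)) := by
    rw [Finset.sum_add_distrib, Finset.mul_sum, Finset.sum_const, Finset.card_univ, nsmul_eq_mul]
    ring
  rw [this]
  refine Finset.sum_le_sum fun i _ => ?_
  have k := sq_hi h0 h1 (abs_y (h i) (h' i))
  have k2 := mul_le_mul_of_nonneg_left (sq_ab (a z) (b z)) h0.le
  linarith

end pw

/-! ## The new coefficients -/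

/-- The margin after the transfer. -/
def mgT (e κ : ℝ) (χ : E → ℝ) (p : Q8 E) : Q8 E where
  κ z := (κ - e) * (1 - e) * χ z ^ 2
  ζ₁ z := (1 - e) * p.ζ₁ z
  ζ₂ z := (1 - e) * p.ζ₂ z
  ζy z := (1 - e) * p.ζy z
  w₁ := p.w₁
  w₂ := p.w₂
  wb := p.wb
  wc := p.wc

/-- The zero order cost of the transfer. -/
def xt (κ' N : ℝ) (χ o o' : E → ℝ) (p q : Q8 E) (z : E) : ℝ :=
  χ z ^ 2 + 4 * o z + 4 * (κ' * o' z) +
    N * (p.ζ₁ z + p.ζ₂ z + 2 * p.ζy z + 2 * (q.ζ₁ z + q.ζ₂ z) + 4 * q.ζy z)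

/-- The cost after the transfer. -/
def coT (e κ' N : ℝ) (χ ψ o o' : E → ℝ) (p q : Q8 E) : Q8 E where
  κ z := κ' * (1 + 2 * e) * ψ z ^ 2
  ζ₁ z := (1 + e) * q.ζ₁ z + e * χ z ^ 2
  ζ₂ z := (1 + e) * q.ζ₂ z + e * χ z ^ 2
  ζy z := (1 + e) * q.ζy z
  w₁ z := q.w₁ z + e * xt κ' N χ o o' p q z
  w₂ z := q.w₂ z + e * xt κ' N χ o o' p q z
  wb := q.wb
  wc := q.wc

/-- A coefficient family without the squares. -/
def nk (p : Q8 E) : Q8 E := { p with κ := fun _ => 0 }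

theorem nk_dens (p : Q8 E) (σ τ : Sl E ι) (v₁ v₂ W a b : E → ℝ) (z : E) :
    p.dens σ τ v₁ v₂ W a b z =
      p.κ z * sqd σ τ v₁ v₂ W a b z + (nk p).dens σ τ v₁ v₂ W a b z := by
  unfold Q8.dens nk
  ring

omit [NormedSpace ℝ E] in
theorem nk_ct {p : Q8 E} {U : Set E} (h : p.Ct U) : (nk p).Ct U :=
  ⟨continuousOn_const, h.ζ₁, h.ζ₂, h.ζy, h.w₁, h.w₂, h.wb, h.wc⟩

section pw2

variable {σ τ σ₀ τ₀ : Sl E ι} {v₁ v₂ v₁' v₂' W W₀ a b χ ψ o o' : E → ℝ} {z : E} {e κ κ' : ℝ}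
  {p q : Q8 E}

/-- The pointwise part of the transfer. -/
theorem pw_T (h0 : 0 < e) (h1 : e ≤ 1)
    (hp : 0 ≤ p.ζ₁ z ∧ 0 ≤ p.ζ₂ z ∧ 0 ≤ p.ζy z) (hq : 0 ≤ q.ζ₁ z ∧ 0 ≤ q.ζ₂ z ∧ 0 ≤ q.ζy z)
    (h : (p.ζ₁ z = 0 ∧ p.ζ₂ z = 0 ∧ p.ζy z = 0 ∧ q.ζ₁ z = 0 ∧ q.ζ₂ z = 0 ∧ q.ζy z = 0) ∨
      (∀ i, |Ch.XX σ W a z i - Ch.XX σ₀ W₀ a z i| ≤ e * |a z|) ∧
      (∀ i, |Ch.XX τ W b z i - Ch.XX τ₀ W₀ b z i| ≤ e * |b z|)) :
    (nk (mgT e κ χ p)).dens σ τ v₁ v₂ W a b z +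
        (nk q).dens σ₀ τ₀ v₁' v₂' W₀ a b z + e * (χ z ^ 2 * (nX σ W a z + nX τ W b z +
          (a z ^ 2 + b z ^ 2))) +
        4 * e * (o z * (a z ^ 2 + b z ^ 2)) + 4 * e * κ' * (o' z * (a z ^ 2 + b z ^ 2)) ≤
      (nk p).dens σ₀ τ₀ v₁' v₂' W₀ a b z +
        (nk (coT e κ' (Fintype.card ι) χ ψ o o' p q)).dens σ τ v₁ v₂ W a b z := by
  obtain ⟨p1, p2, p3⟩ := hp
  obtain ⟨q1, q2, q3⟩ := hq
  unfold Q8.dens nk mgT coT xt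
  simp only [zero_mul, zero_add]
  set N : ℝ := (Fintype.card ι : ℝ) with hN
  have hN0 : 0 ≤ N := by positivity
  have sa := sq_nonneg (a z)
  have sb := sq_nonneg (b z)
  rcases h with ⟨z1, z2, z3, z4, z5, z6⟩ | ⟨hx, hy⟩
  · rw [z1, z2, z3, z4, z5, z6]
    nlinarith
  · have a1 := mul_le_mul_of_nonneg_left (nX_lo h0 hx) p1
    have a2 := mul_le_mul_of_nonneg_left (nX_lo h0 hy) p2
    have a3 := mul_le_mul_of_nonneg_left (nY_lo h0 hx hy) p3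
    have b1 := mul_le_mul_of_nonneg_left (nX_hi h0 h1 hx) q1
    have b2 := mul_le_mul_of_nonneg_left (nX_hi h0 h1 hy) q2
    have b3 := mul_le_mul_of_nonneg_left (nY_hi h0 h1 hx hy) q3
    rw [← hN] at a1 a2 a3 b1 b2 b3
    have c1 : 0 ≤ e * (N * (p.ζ₁ z * b z ^ 2)) := by positivity
    have c2 : 0 ≤ e * (N * (p.ζ₂ z * a z ^ 2)) := by positivity
    have c3 : 0 ≤ e * (N * (q.ζ₁ z * b z ^ 2)) := by positivity
    have c4 : 0 ≤ e * (N * (q.ζ₂ z * a z ^ 2)) := by positivity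
    nlinarith [a1, a2, a3, b1, b2, b3, c1, c2, c3, c4]

end pw2

omit [NormedSpace ℝ E] in
theorem mgT_ct {U : Set E} {e κ : ℝ} {χ : E → ℝ} {p : Q8 E} (hχ : ContinuousOn χ U)
    (h : p.Ct U) : (mgT e κ χ p).Ct U :=
  ⟨continuousOn_const.mul (hχ.pow 2), continuousOn_const.mul h.ζ₁, continuousOn_const.mul h.ζ₂,
    continuousOn_const.mul h.ζy, h.w₁, h.w₂, h.wb, h.wc⟩

omit [NormedSpace ℝ E] in
theorem coT_ct {U : Set E} {e κ' N : ℝ} {χ ψ o o' : E → ℝ} {p q : Q8 E}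
    (hχ : ContinuousOn χ U) (hψ : ContinuousOn ψ U) (ho : ContinuousOn o U)
    (ho' : ContinuousOn o' U) (h : p.Ct U) (h' : q.Ct U) : (coT e κ' N χ ψ o o' p q).Ct U := by
  have x : ContinuousOn (xt κ' N χ o o' p q) U :=
    (((hχ.pow 2).add (continuousOn_const.mul ho)).add
      (continuousOn_const.mul (continuousOn_const.mul ho'))).add
      (continuousOn_const.mul ((((h.ζ₁.add h.ζ₂).add (continuousOn_const.mul h.ζy)).add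
        (continuousOn_const.mul (h'.ζ₁.add h'.ζ₂))).add (continuousOn_const.mul h'.ζy)))
  exact ⟨continuousOn_const.mul (hψ.pow 2),
    (continuousOn_const.mul h'.ζ₁).add (continuousOn_const.mul (hχ.pow 2)),
    (continuousOn_const.mul h'.ζ₂).add (continuousOn_const.mul (hχ.pow 2)),
    continuousOn_const.mul h'.ζy, h'.w₁.add (continuousOn_const.mul x),
    h'.w₂.add (continuousOn_const.mul x), h'.wb, h'.wc⟩

theorem fin_T {A₀ A₁ B₀ B₁ O₁ O₂ X S S₀ P Q M C e κ κ' : ℝ} (h0 : 0 < e) (h1 : e ≤ 1 / 2)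
    (hκ : e ≤ κ) (hκ1 : κ ≤ 1) (hκ' : 0 ≤ κ') (pA : 0 ≤ A₀) (pB : 0 ≤ B₀)
    (wo : 0 ≤ O₁) (wo' : 0 ≤ O₂) (A : |A₁ - A₀| ≤ e * (A₀ + 2 * O₁))
    (B : |B₁ - B₀| ≤ e * (B₀ + 2 * O₂)) (Z : κ * A₀ + P - (κ' * B₀ + Q) ≤ A₀ + S₀)
    (e7 : S₀ ≤ S + e * X)
    (e8 : M + Q + e * X + 4 * e * O₁ + 4 * e * κ' * O₂ ≤ P + C) :
    (κ - e) * (1 - e) * A₁ + M - (κ' * (1 + 2 * e) * B₁ + C) ≤ A₁ + S := by
  have a1 := (abs_le.1 A).1
  have a2 := (abs_le.1 A).2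
  have b1 := (abs_le.1 B).1
  have a3 : (1 - e) * A₁ ≤ A₀ + 2 * e * O₁ := by
    have k1 : A₁ ≤ (1 + e) * A₀ + 2 * e * O₁ := by linarith
    have k2 : (1 - e) * A₁ ≤ (1 - e) * ((1 + e) * A₀ + 2 * e * O₁) :=
      mul_le_mul_of_nonneg_left k1 (by linarith)
    have k3 : (1 - e) * ((1 + e) * A₀ + 2 * e * O₁) =
      A₀ + 2 * e * O₁ - (e ^ 2 * A₀ + 2 * e ^ 2 * O₁) := by ring
    have k4 : 0 ≤ e ^ 2 * A₀ + 2 * e ^ 2 * O₁ := by positivity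
    linarith
  have b3 : B₀ ≤ (1 + 2 * e) * B₁ + 4 * e * O₂ := by
    have k1 : (1 - e) * B₀ ≤ B₁ + 2 * e * O₂ := by linarith
    have k2 : (1 + 2 * e) * ((1 - e) * B₀) ≤ (1 + 2 * e) * (B₁ + 2 * e * O₂) :=
      mul_le_mul_of_nonneg_left k1 (by linarith)
    have k3 : B₀ ≤ (1 + 2 * e) * ((1 - e) * B₀) := by
      have : (1 + 2 * e) * ((1 - e) * B₀) - B₀ = e * (1 - 2 * e) * B₀ := by ring
      have h4 : 0 ≤ e * (1 - 2 * e) * B₀ :=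
        mul_nonneg (mul_nonneg h0.le (by linarith)) pB
      linarith
    have k4 : (1 + 2 * e) * (2 * e * O₂) ≤ 4 * e * O₂ := by
      have : 0 ≤ e * (1 - 2 * e) * O₂ := mul_nonneg (mul_nonneg h0.le (by linarith)) wo'
      have k5 : 4 * e * O₂ - (1 + 2 * e) * (2 * e * O₂) = 2 * (e * (1 - 2 * e) * O₂) := by ring
      linarith
    linarith
  have a4 := mul_le_mul_of_nonneg_left a3 (sub_nonneg.2 hκ)
  have b4 := mul_le_mul_of_nonneg_left b3 hκ'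
  have o4 : (κ - e) * (2 * e * O₁) ≤ 2 * e * O₁ := by
    have : 0 ≤ 2 * e * O₁ := by positivity
    have k : κ - e ≤ 1 := by linarith
    nlinarith
  have r1 : (κ - e) * (1 - e) * A₁ = (κ - e) * ((1 - e) * A₁) := by ring
  have r2 : κ' * ((1 + 2 * e) * B₁ + 4 * e * O₂) =
    κ' * (1 + 2 * e) * B₁ + 4 * e * κ' * O₂ := by ring
  have r3 : (κ - e) * (A₀ + 2 * e * O₁) = κ * A₀ - e * A₀ + (κ - e) * (2 * e * O₁) := by ring
  rw [r1]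
  linarith

/-! ## The integrals -/

section integral

variable [MeasureSpace E]

/-- `|∫ χ² (P f)² - ∫ χ² (P₀ f)²| ≤ e (∫ χ² (P₀ f)² + ∫ o f²)`. -/
def SqC (σ σ₀ : Sl E ι) (U : Set E) (θ v v' W W₀ χ o : E → ℝ) (e : ℝ) : Prop :=
  ∀ f : E → ℝ, Te U f →
    |In U θ (fun z => χ z ^ 2 * σ.P v W f z ^ 2) -
      In U θ (fun z => χ z ^ 2 * σ₀.P v' W₀ f z ^ 2)| ≤
    e * (In U θ (fun z => χ z ^ 2 * σ₀.P v' W₀ f z ^ 2) + In U θ (fun z => o z * f z ^ 2))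

variable [FiniteDimensional ℝ E] [BorelSpace E] [(volume : Measure E).IsAddHaarMeasure]

variable {σ τ σ₀ τ₀ : Sl E ι} {U : Set E} {θ f g v₁ v₂ v₁' v₂' W W₀ a b χ ψ o o' : E → ℝ}
  {e κ κ' : ℝ} {p q : Q8 E}

omit [NormedSpace ℝ E] [FiniteDimensional ℝ E] [BorelSpace E]
  [(volume : Measure E).IsAddHaarMeasure] in
theorem In_add_i (hf : IntegrableOn (fun z => θ z * f z) U)
    (hg : IntegrableOn (fun z => θ z * g z) U) :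
    In U θ (fun z => f z + g z) = In U θ f + In U θ g := by
  unfold In
  rw [← integral_add hf hg]
  congr 1
  funext z
  ring

omit [NormedSpace ℝ E] [FiniteDimensional ℝ E] [BorelSpace E]
  [(volume : Measure E).IsAddHaarMeasure] in
theorem int_cm (hf : IntegrableOn (fun z => θ z * f z) U) (c : ℝ) :
    IntegrableOn (fun z => θ z * (c * f z)) U := by
  refine (hf.const_mul c).congr ?_
  exact Filter.Eventually.of_forall fun z => by simp only; ring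

omit [NormedSpace ℝ E] [FiniteDimensional ℝ E] [BorelSpace E]
  [(volume : Measure E).IsAddHaarMeasure] in
theorem int_ad (hf : IntegrableOn (fun z => θ z * f z) U)
    (hg : IntegrableOn (fun z => θ z * g z) U) :
    IntegrableOn (fun z => θ z * (f z + g z)) U := by
  refine (hf.add hg).congr ?_
  exact Filter.Eventually.of_forall fun z => by simp only [Pi.add_apply]; ring

omit [NormedSpace ℝ E] [FiniteDimensional ℝ E] [(volume : Measure E).IsAddHaarMeasure] in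
theorem In_mono_i (hU : IsOpen U) (hθ : ∀ z ∈ U, 0 < θ z)
    (hf : IntegrableOn (fun z => θ z * f z) U) (hg : IntegrableOn (fun z => θ z * g z) U)
    (h : ∀ z ∈ U, f z ≤ g z) : In U θ f ≤ In U θ g :=
  setIntegral_mono_on hf hg hU.measurableSet
    fun z hz => mul_le_mul_of_nonneg_left (h z hz) (hθ z hz).le

/-- The four squares. -/
theorem sqd_C (ok : σ.Ok U θ) (ot : τ.Ok U θ) (ok₀ : σ₀.Ok U θ) (ot₀ : τ₀.Ok U θ)
    (hv₁ : Sm U v₁) (hv₂ : Sm U v₂) (hv₁' : Sm U v₁') (hv₂' : Sm U v₂') (hW : Sm U W)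
    (hW₀ : Sm U W₀) (hχ : Sm U χ) (ho : ContinuousOn o U)
    (sx : SqC σ σ₀ U θ v₁ v₁' W W₀ χ o e) (sy : SqC τ τ₀ U θ v₂ v₂' W W₀ χ o e)
    (ha : Te U a) (hb : Te U b) :
    |In U θ (fun z => χ z ^ 2 * sqd σ τ v₁ v₂ W a b z) -
      In U θ (fun z => χ z ^ 2 * sqd σ₀ τ₀ v₁' v₂' W₀ a b z)| ≤
    e * (In U θ (fun z => χ z ^ 2 * sqd σ₀ τ₀ v₁' v₂' W₀ a b z) +
      2 * In U θ (fun z => o z * (a z ^ 2 + b z ^ 2))) := by
  have hU := ok.op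
  have sp : ∀ (σ τ : Sl E ι) (v₁ v₂ W : E → ℝ), σ.Ok U θ → τ.Ok U θ → Sm U v₁ → Sm U v₂ →
      Sm U W → In U θ (fun z => χ z ^ 2 * sqd σ τ v₁ v₂ W a b z) =
      In U θ (fun z => χ z ^ 2 * σ.P v₁ W a z ^ 2) +
      In U θ (fun z => χ z ^ 2 * τ.P v₂ W b z ^ 2) +
      In U θ (fun z => χ z ^ 2 * τ.P v₂ W a z ^ 2) +
      In U θ (fun z => χ z ^ 2 * σ.P v₁ W b z ^ 2) := by
    intro σ τ v₁ v₂ W ok ot hv₁ hv₂ hW
    have t1 := ((ok.tP hv₁ hW ha).sq hU).mul_left hU (hχ.pow 2)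
    have t2 := ((ot.tP hv₂ hW hb).sq hU).mul_left hU (hχ.pow 2)
    have t3 := ((ot.tP hv₂ hW ha).sq hU).mul_left hU (hχ.pow 2)
    have t4 := ((ok.tP hv₁ hW hb).sq hU).mul_left hU (hχ.pow 2)
    have r : (fun z => χ z ^ 2 * sqd σ τ v₁ v₂ W a b z) = fun z =>
        χ z ^ 2 * σ.P v₁ W a z ^ 2 + χ z ^ 2 * τ.P v₂ W b z ^ 2 + χ z ^ 2 * τ.P v₂ W a z ^ 2 +
          χ z ^ 2 * σ.P v₁ W b z ^ 2 := by
      funext z; unfold sqd; ring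
    rw [r, In_add hU ok.ts ((t1.add hU t2).add hU t3) t4, In_add hU ok.ts (t1.add hU t2) t3,
      In_add hU ok.ts t1 t2]
  have so : In U θ (fun z => o z * (a z ^ 2 + b z ^ 2)) =
      In U θ (fun z => o z * a z ^ 2) + In U θ (fun z => o z * b z ^ 2) := by
    rw [← In_add_i (ct_int hU ok.ts ho (ha.sq hU)) (ct_int hU ok.ts ho (hb.sq hU))]
    congr 1
    funext z
    ring
  rw [sp σ τ v₁ v₂ W ok ot hv₁ hv₂ hW, sp σ₀ τ₀ v₁' v₂' W₀ ok₀ ot₀ hv₁' hv₂' hW₀, so]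
  have k1 := abs_le.1 (sx a ha)
  have k2 := abs_le.1 (sy b hb)
  have k3 := abs_le.1 (sy a ha)
  have k4 := abs_le.1 (sx b hb)
  rw [abs_le]
  constructor <;> linarith [k1.1, k1.2, k2.1, k2.2, k3.1, k3.2, k4.1, k4.2]

/-- **Transfer of a zone inequality.** -/
theorem zone_pert (ok : σ.Ok U θ) (ot : τ.Ok U θ) (ok₀ : σ₀.Ok U θ) (ot₀ : τ₀.Ok U θ)
    (hv₁ : Sm U v₁) (hv₂ : Sm U v₂) (hv₁' : Sm U v₁') (hv₂' : Sm U v₂') (hW : Sm U W)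
    (hW₀ : Sm U W₀) (hχ : Sm U χ) (hψ : Sm U ψ) (ho : ContinuousOn o U)
    (ho' : ContinuousOn o' U) (o0 : ∀ z ∈ U, 0 ≤ o z) (o0' : ∀ z ∈ U, 0 ≤ o' z)
    (h0 : 0 < e) (h1 : e ≤ 1 / 2) (hκ : e ≤ κ) (hκ1 : κ ≤ 1) (hκ' : 0 ≤ κ')
    (cp : p.Ct U) (cq : q.Ct U) (kp : ∀ z ∈ U, p.κ z = κ * χ z ^ 2)
    (kq : ∀ z ∈ U, q.κ z ≤ κ' * ψ z ^ 2)
    (hp : ∀ z ∈ U, 0 ≤ p.ζ₁ z ∧ 0 ≤ p.ζ₂ z ∧ 0 ≤ p.ζy z)
    (hq : ∀ z ∈ U, 0 ≤ q.ζ₁ z ∧ 0 ≤ q.ζ₂ z ∧ 0 ≤ q.ζy z)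
    (sx : SqC σ σ₀ U θ v₁ v₁' W W₀ χ o e) (sy : SqC τ τ₀ U θ v₂ v₂' W W₀ χ o e)
    (sx' : SqC σ σ₀ U θ v₁ v₁' W W₀ ψ o' e) (sy' : SqC τ τ₀ U θ v₂ v₂' W W₀ ψ o' e)
    (hs : ∀ a b : E → ℝ, Te U a → Te U b → ∀ z ∈ U, χ z ≠ 0 →
      |sta σ τ v₁ v₂ W a b z - sta σ₀ τ₀ v₁' v₂' W₀ a b z| ≤
        e * (nX σ W a z + nX τ W b z + (a z ^ 2 + b z ^ 2)))
    (hD : ∀ z ∈ U,
      (p.ζ₁ z = 0 ∧ p.ζ₂ z = 0 ∧ p.ζy z = 0 ∧ q.ζ₁ z = 0 ∧ q.ζ₂ z = 0 ∧ q.ζy z = 0) ∨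
      ∀ a : E → ℝ, (∀ i, |Ch.XX σ W a z i - Ch.XX σ₀ W₀ a z i| ≤ e * |a z|) ∧
        (∀ i, |Ch.XX τ W a z i - Ch.XX τ₀ W₀ a z i| ≤ e * |a z|))
    (zone : Zone σ₀ τ₀ U θ v₁' v₂' W₀ χ p q) :
    Zone σ τ U θ v₁ v₂ W χ (mgT e κ χ p) (coT e κ' (Fintype.card ι) χ ψ o o' p q) := by
  intro a b ha hb
  have hU := ok.op
  have hθ := ok.ts
  have tab : Te U fun z => a z ^ 2 + b z ^ 2 := (ha.sq hU).add hU (hb.sq hU)
  have ta := (tsqd ok ot hv₁ hv₂ hW ha hb).mul_left hU (hχ.pow 2)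
  have ta₀ := (tsqd ok₀ ot₀ hv₁' hv₂' hW₀ ha hb).mul_left hU (hχ.pow 2)
  have tb := (tsqd ok ot hv₁ hv₂ hW ha hb).mul_left hU (hψ.pow 2)
  have tb₀ := (tsqd ok₀ ot₀ hv₁' hv₂' hW₀ ha hb).mul_left hU (hψ.pow 2)
  have ts := (tsta ok ot hv₁ hv₂ hW ha hb).mul_left hU (hχ.pow 2)
  have ts₀ := (tsta ok₀ ot₀ hv₁' hv₂' hW₀ ha hb).mul_left hU (hχ.pow 2)
  have tx : Te U fun z => χ z ^ 2 * (nX σ W a z + nX τ W b z + (a z ^ 2 + b z ^ 2)) :=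
    (((tnX ok hW ha).add hU (tnX ot hW hb)).add hU tab).mul_left hU (hχ.pow 2)
  have cm := mgT_ct (e := e) (κ := κ) hχ.continuousOn cp
  have cc := coT_ct (e := e) (κ' := κ') (N := Fintype.card ι) hχ.continuousOn hψ.continuousOn
    ho ho' cp cq
  have A := sqd_C ok ot ok₀ ot₀ hv₁ hv₂ hv₁' hv₂' hW hW₀ hχ ho sx sy ha hb
  have B := sqd_C ok ot ok₀ ot₀ hv₁ hv₂ hv₁' hv₂' hW hW₀ hψ ho' sx' sy' ha hb
  have Z := zone a b ha hb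
  -- integrability
  have iow : IntegrableOn (fun z => θ z * (o z * (a z ^ 2 + b z ^ 2))) U := ct_int hU hθ ho tab
  have iow' : IntegrableOn (fun z => θ z * (o' z * (a z ^ 2 + b z ^ 2))) U :=
    ct_int hU hθ ho' tab
  have ipk := Q8.int_dens ok₀ ot₀ hv₁' hv₂' hW₀ ha hb (nk_ct cp)
  have iqk := Q8.int_dens ok₀ ot₀ hv₁' hv₂' hW₀ ha hb (nk_ct cq)
  have imk := Q8.int_dens ok ot hv₁ hv₂ hW ha hb (nk_ct cm)
  have ick := Q8.int_dens ok ot hv₁ hv₂ hW ha hb (nk_ct cc)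
  have iq := Q8.int_dens ok₀ ot₀ hv₁' hv₂' hW₀ ha hb cq
  -- splittings
  have e1 : In U θ (p.dens σ₀ τ₀ v₁' v₂' W₀ a b) =
      κ * In U θ (fun z => χ z ^ 2 * sqd σ₀ τ₀ v₁' v₂' W₀ a b z) +
      In U θ ((nk p).dens σ₀ τ₀ v₁' v₂' W₀ a b) := by
    rw [← In_cmul, ← In_add_i (int_cm (te_int hU hθ ta₀) κ) ipk]
    refine In_congr hU fun z hz => ?_
    rw [nk_dens, kp z hz]; ring
  have e2 : In U θ (q.dens σ₀ τ₀ v₁' v₂' W₀ a b) ≤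
      κ' * In U θ (fun z => ψ z ^ 2 * sqd σ₀ τ₀ v₁' v₂' W₀ a b z) +
      In U θ ((nk q).dens σ₀ τ₀ v₁' v₂' W₀ a b) := by
    rw [← In_cmul, ← In_add_i (int_cm (te_int hU hθ tb₀) κ') iqk]
    refine In_mono_i hU ok.tp iq (int_ad (int_cm (te_int hU hθ tb₀) κ') iqk) fun z hz => ?_
    rw [nk_dens q]
    have := mul_le_mul_of_nonneg_right (kq z hz) (sqd_nonneg σ₀ τ₀ v₁' v₂' W₀ a b z)
    linarith
  have e3 : In U θ ((mgT e κ χ p).dens σ τ v₁ v₂ W a b) =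
      (κ - e) * (1 - e) * In U θ (fun z => χ z ^ 2 * sqd σ τ v₁ v₂ W a b z) +
      In U θ ((nk (mgT e κ χ p)).dens σ τ v₁ v₂ W a b) := by
    rw [← In_cmul, ← In_add_i (int_cm (te_int hU hθ ta) _) imk]
    refine In_congr hU fun z hz => ?_
    rw [nk_dens]; simp only [mgT]; ring
  have e4 : In U θ ((coT e κ' (Fintype.card ι) χ ψ o o' p q).dens σ τ v₁ v₂ W a b) =
      κ' * (1 + 2 * e) * In U θ (fun z => ψ z ^ 2 * sqd σ τ v₁ v₂ W a b z) +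
      In U θ ((nk (coT e κ' (Fintype.card ι) χ ψ o o' p q)).dens σ τ v₁ v₂ W a b) := by
    rw [← In_cmul, ← In_add_i (int_cm (te_int hU hθ tb) _) ick]
    refine In_congr hU fun z hz => ?_
    rw [nk_dens]; simp only [coT]; ring
  have e5 : In U θ (fun z => χ z ^ 2 * dn σ τ v₁ v₂ W a b z) =
      In U θ (fun z => χ z ^ 2 * sqd σ τ v₁ v₂ W a b z) +
      In U θ (fun z => χ z ^ 2 * sta σ τ v₁ v₂ W a b z) := by
    rw [← In_add hU hθ ta ts]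
    refine In_congr hU fun z _ => ?_
    unfold dn; ring
  have e6 : In U θ (fun z => χ z ^ 2 * dn σ₀ τ₀ v₁' v₂' W₀ a b z) =
      In U θ (fun z => χ z ^ 2 * sqd σ₀ τ₀ v₁' v₂' W₀ a b z) +
      In U θ (fun z => χ z ^ 2 * sta σ₀ τ₀ v₁' v₂' W₀ a b z) := by
    rw [← In_add hU hθ ta₀ ts₀]
    refine In_congr hU fun z _ => ?_
    unfold dn; ring
  have e7 : In U θ (fun z => χ z ^ 2 * sta σ₀ τ₀ v₁' v₂' W₀ a b z) ≤
      In U θ (fun z => χ z ^ 2 * sta σ τ v₁ v₂ W a b z) +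
      e * In U θ (fun z => χ z ^ 2 * (nX σ W a z + nX τ W b z + (a z ^ 2 + b z ^ 2))) := by
    rw [← In_cmul, ← In_add hU hθ ts (tx.cmul hU e)]
    refine In_mono hU ok.tp hθ ts₀ (ts.add hU (tx.cmul hU e)) fun z hz => ?_
    by_cases hc : χ z = 0
    · simp [hc]
    · have k := (abs_le.1 (hs a b ha hb z hz hc)).1
      have k2 := mul_le_mul_of_nonneg_left k (sq_nonneg (χ z))
      nlinarith
  -- the pointwise part
  have e8 : In U θ ((nk (mgT e κ χ p)).dens σ τ v₁ v₂ W a b) +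
      In U θ ((nk q).dens σ₀ τ₀ v₁' v₂' W₀ a b) +
      e * In U θ (fun z => χ z ^ 2 * (nX σ W a z + nX τ W b z + (a z ^ 2 + b z ^ 2))) +
      4 * e * In U θ (fun z => o z * (a z ^ 2 + b z ^ 2)) +
      4 * e * κ' * In U θ (fun z => o' z * (a z ^ 2 + b z ^ 2)) ≤
      In U θ ((nk p).dens σ₀ τ₀ v₁' v₂' W₀ a b) +
      In U θ ((nk (coT e κ' (Fintype.card ι) χ ψ o o' p q)).dens σ τ v₁ v₂ W a b) := by
    have i3 := int_cm (te_int hU hθ tx) e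
    have i4 := int_cm iow (4 * e)
    have i5 := int_cm iow' (4 * e * κ')
    rw [← In_cmul U θ e, ← In_cmul U θ (4 * e), ← In_cmul U θ (4 * e * κ'),
      ← In_add_i imk iqk, ← In_add_i (int_ad imk iqk) i3,
      ← In_add_i (int_ad (int_ad imk iqk) i3) i4,
      ← In_add_i (int_ad (int_ad (int_ad imk iqk) i3) i4) i5, ← In_add_i ipk ick]
    refine In_mono_i hU ok.tp (int_ad (int_ad (int_ad (int_ad imk iqk) i3) i4) i5)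
      (int_ad ipk ick) fun z hz => ?_
    refine pw_T h0 (by linarith) (hp z hz) (hq z hz) ?_
    rcases hD z hz with h | h
    · exact Or.inl h
    · exact Or.inr ⟨(h a).1, (h b).2⟩
  have wo : 0 ≤ In U θ (fun z => o z * (a z ^ 2 + b z ^ 2)) :=
    In_nonneg hU ok.tp fun z hz => mul_nonneg (o0 z hz) (by positivity)
  have wo' : 0 ≤ In U θ (fun z => o' z * (a z ^ 2 + b z ^ 2)) :=
    In_nonneg hU ok.tp fun z hz => mul_nonneg (o0' z hz) (by positivity)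
  have pA : 0 ≤ In U θ (fun z => χ z ^ 2 * sqd σ₀ τ₀ v₁' v₂' W₀ a b z) :=
    In_nonneg hU ok.tp fun z _ => mul_nonneg (sq_nonneg _) (sqd_nonneg _ _ _ _ _ _ _ _)
  have pB : 0 ≤ In U θ (fun z => ψ z ^ 2 * sqd σ₀ τ₀ v₁' v₂' W₀ a b z) :=
    In_nonneg hU ok.tp fun z _ => mul_nonneg (sq_nonneg _) (sqd_nonneg _ _ _ _ _ _ _ _)
  rw [e3, e4, e5]
  rw [e1, e6] at Z
  exact fin_T h0 h1 hκ hκ1 hκ' pA pB wo wo' A B (le_trans (by linarith [e2]) Z) e7 e8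

/-- Smaller margins, larger costs. -/
theorem zone_mono (ok : σ.Ok U θ) (ot : τ.Ok U θ) (hv₁ : Sm U v₁) (hv₂ : Sm U v₂)
    (hW : Sm U W) {p' q' : Q8 E} (cp : p.Ct U) (cq : q.Ct U) (cp' : p'.Ct U) (cq' : q'.Ct U)
    (hp : ∀ z ∈ U, Q8.Le p' p z) (hq : ∀ z ∈ U, Q8.Le q q' z)
    (zone : Zone σ τ U θ v₁ v₂ W χ p q) : Zone σ τ U θ v₁ v₂ W χ p' q' := by
  intro a b ha hb
  have h1 := In_mono_i ok.op ok.tp (Q8.int_dens ok ot hv₁ hv₂ hW ha hb cp')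
    (Q8.int_dens ok ot hv₁ hv₂ hW ha hb cp) fun z hz => Q8.dens_le (hp z hz)
  have h2 := In_mono_i ok.op ok.tp (Q8.int_dens ok ot hv₁ hv₂ hW ha hb cq)
    (Q8.int_dens ok ot hv₁ hv₂ hW ha hb cq') fun z hz => Q8.dens_le (hq z hz)
  linarith [zone a b ha hb]

end integral

end Vale.Agent.P088.R2.H354.E
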