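import Vale.Agent.P088.R2.H354.E.Pert
import Vale.Agent.P088.R2.H973.W.PertT
import Vale.Agent.P088.R2.H912.W.PertS

/-!
# P088, stage 3, EP-PERT: transfer of a zone inequality from the flat slots

`pert_xy`: a zone inequality for `fx, fy` and the weight `W₀` gives one for `sx s₁, sy s₂`, the
potentials `v₁, v₂` and the weight `W`, if all data are `ε`-close where the cut-offs do not vanish.
-/

open MeasureTheory Set Filter
open scoped ContDiff Topology Matrix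

noncomputable section

namespace Vale.Agent.P088.R2.H354.E

open Vale.Agent.P088.LR Vale.Agent.P088.HY
open Vale.Agent.P088.R2.H961.GW Vale.Agent.P088.R2.H960.W Vale.Agent.P088.R2.H644
open Vale.Agent.P088.R2.H551.E Vale.Agent.P088.R2.H464.Cu Vale.Agent.P088.R2.H973.W
open Vale.Agent.P088.R2.H644.Ch (fx fy fx_s fy_s fx_D fy_D fx_k fy_k fx_Λ fy_Λ fx_Γ fy_Γ ok_fx ok_fy
  dx_dx_comm dy_dy_comm)
open Vale.Agent.P088.R2.H912.Cw (Cl Flt PN PF L0 q1 q2 pq dl cT cS)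

variable {n : ℕ} {U : Set (VV n)} {O₁ O₂ : Set (V n)} {s s₁ s₂ : MF n} {v W W₀ f : VV n → ℝ}
  {z : VV n} {ε B : ℝ}

/-! ## The slots -/

theorem fr_s {O : Set (V n)} (hO : IsOpen O) (sm : ∀ i j, ContDiffOn ℝ ∞ (fun x => s x i j) O)
    (sy : ∀ x i j, s x i j = s x j i) : Fr0 (fun _ : V n => (1 : ℝ)) s O :=
  ⟨hO, fun _ _ => one_pos, contDiffOn_const, sm, sy⟩

theorem one_symm (i j : Fin n) :
    (1 : Matrix (Fin n) (Fin n) ℝ) i j = (1 : Matrix (Fin n) (Fin n) ℝ) j i := by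
  rw [Matrix.one_apply, Matrix.one_apply]; simp [eq_comm]

theorem ok_sx (o₁ : IsOpen O₁) (oU : IsOpen U) (hU : ∀ z ∈ U, z.1 ∈ O₁)
    (sm : ∀ i j, ContDiffOn ℝ ∞ (fun x => s x i j) O₁) (sy : ∀ x i j, s x i j = s x j i) :
    (sx s).Ok U fun _ => 1 := by
  have h := okx (fr_s o₁ sm sy) (fr_s (s := fun _ => 1) (O := univ) isOpen_univ
    (fun _ _ => contDiffOn_const) fun _ i j => one_symm i j) oU
    (fun z hz => ⟨hU z hz, mem_univ _⟩)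
  rwa [tht_one] at h

theorem ok_sy (o₂ : IsOpen O₂) (oU : IsOpen U) (hU : ∀ z ∈ U, z.2 ∈ O₂)
    (sm : ∀ i j, ContDiffOn ℝ ∞ (fun x => s x i j) O₂) (sy : ∀ x i j, s x i j = s x j i) :
    (H464.Cu.sy s).Ok U fun _ => 1 := by
  have h := oky (fr_s (s := fun _ => 1) (O := univ) isOpen_univ
    (fun _ _ => contDiffOn_const) fun _ i j => one_symm i j) (fr_s o₂ sm sy) oU
    (fun z hz => ⟨mem_univ _, hU z hz⟩)
  rwa [tht_one] at h

theorem flt_x (hU : IsOpen U) : Flt (fx n) U :=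
  ⟨fx_k, fun f hf i j z hz => by simpa only [fx_D] using dx_dx_comm hU hf i j hz⟩

theorem flt_y (hU : IsOpen U) : Flt (fy n) U :=
  ⟨fy_k, fun f hf i j z hz => by simpa only [fy_D] using dy_dy_comm hU hf i j hz⟩

theorem sx_k (i : Fin n) (z : VV n) : (sx s).k i z = 0 := by simp [sx, slx, pd]

theorem sy_k (i : Fin n) (z : VV n) : (sy s).k i z = 0 := by simp [sy, sly, pd]

theorem sx_D (i : Fin n) (f : VV n → ℝ) : (sx s).D i f = (fx n).D i f := rfl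

theorem sy_D (i : Fin n) (f : VV n → ℝ) : (sy s).D i f = (fy n).D i f := rfl

/-- The operator in the written out form. -/
theorem P_sx (v W f : VV n → ℝ) (z : VV n) : (sx s).P v W f z = PN (fx n) (sx s) v W f z := by
  unfold Sl.P Sl.K Sl.F Sl.Λ Sl.Γ PN
  simp only [sx_k, sx_D, zero_mul, add_zero]

theorem P_sy (v W f : VV n → ℝ) (z : VV n) : (sy s).P v W f z = PN (fy n) (sy s) v W f z := by
  unfold Sl.P Sl.K Sl.F Sl.Λ Sl.Γ PN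
  simp only [sy_k, sy_D, zero_mul, add_zero]

theorem P_fx (W f : VV n → ℝ) (z : VV n) : (fx n).P (fun _ => 0) W f z =
    PF (fx n) W (fun z => L0 (fx n) W z + q1 (fx n) W z) f z := by
  unfold Sl.P Sl.K Sl.F PF L0 q1 pq
  simp only [fx_Λ, fx_Γ, fx_D, pow_two]
  ring

theorem P_fy (W f : VV n → ℝ) (z : VV n) : (fy n).P (fun _ => 0) W f z =
    PF (fy n) W (fun z => L0 (fy n) W z + q1 (fy n) W z) f z := by
  unfold Sl.P Sl.K Sl.F PF L0 q1 pq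
  simp only [fy_Λ, fy_Γ, fy_D, pow_two]
  ring

/-! ## The closeness of the data -/

theorem nx_le (i : Fin n) : ‖((Pi.single i 1, 0) : VV n)‖ ≤ 1 := dr_le (Sum.inl i)

theorem ny_le (i : Fin n) : ‖((0, Pi.single i 1) : VV n)‖ ≤ 1 := dr_le (Sum.inr i)

theorem dd1 (hU : IsOpen U) (hf : Sm U f) (hz : z ∈ U) {u : VV n} (hu : ‖u‖ ≤ 1) :
    |fderiv ℝ f z u| ≤ Nk 1 f z :=
  DD_le (l := [u]) hU hf (by simpa using hu) hz

theorem dd2 (hU : IsOpen U) (hf : Sm U f) (hz : z ∈ U) {u w : VV n} (hu : ‖u‖ ≤ 1)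
    (hw : ‖w‖ ≤ 1) : |fderiv ℝ (fun z => fderiv ℝ f z u) z w| ≤ Nk 2 f z :=
  DD_le (l := [w, u]) hU hf (by simp [hu, hw]) hz

theorem dd1s (hU : IsOpen U) (hW : Sm U W) (hW₀ : Sm U W₀) (hz : z ∈ U) {u : VV n}
    (hu : ‖u‖ ≤ 1) : |fderiv ℝ W z u - fderiv ℝ W₀ z u| ≤ Nk 1 (fun z => W z - W₀ z) z := by
  have h := dd1 hU (hW.sub hW₀) hz hu
  rwa [fderiv_fun_sub (hW.diff hU hz) (hW₀.diff hU hz)] at h

theorem dd2s (hU : IsOpen U) (hW : Sm U W) (hW₀ : Sm U W₀) (hz : z ∈ U) {u w : VV n}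
    (hu : ‖u‖ ≤ 1) (hw : ‖w‖ ≤ 1) : |fderiv ℝ (fun z => fderiv ℝ W z u) z w -
      fderiv ℝ (fun z => fderiv ℝ W₀ z u) z w| ≤ Nk 2 (fun z => W z - W₀ z) z := by
  have h := dd2 hU (hW.sub hW₀) hz hu hw
  have h1 := DD_sub hU hW hW₀ [w, u] z hz
  have h2 : DD [w, u] (fun z => W z - W₀ z) z = fderiv ℝ (fun z => fderiv ℝ W z u) z w -
      fderiv ℝ (fun z => fderiv ℝ W₀ z u) z w := h1
  rw [← h2]
  exact h

theorem cl_sx (hU : IsOpen U) (h₁ : N3 O₁ ε ε ε ε s) (hW : Sm U W) (hW₀ : Sm U W₀)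
    (hz : z ∈ U) (hz1 : z.1 ∈ O₁) (o₁ : IsOpen O₁) (hv : |v z| ≤ ε) (jW : Jt 4 B ε W W₀ z) :
    Cl (fx n) (sx s) v W W₀ ε B z where
  s0 i j := h₁.b0 z.1 hz1 i j
  s1 k i j := by
    have h := h₁.b1 z.1 hz1 k i j
    have e : (fx n).D k ((sx s).s i j) z = 1 * pd k (fun x => s x i j) z.1 :=
      Dx_fst (r := fun _ => 1) (s := fun _ => 1) (df_of o₁ (h₁.sm i j) hz1) k
    rw [e, one_mul]
    exact h
  v0 := hv
  w1 i := by
    have h := dd1s hU hW hW₀ hz (nx_le i)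
    have e : ∀ f : VV n → ℝ, (fx n).D i f z = fderiv ℝ f z (Pi.single i 1, 0) := fun f => by
      rw [fx_D]; rfl
    rw [e, e]
    exact h.trans (jW 1 le_rfl (by norm_num)).2.2
  w2 i j := by
    have h := dd2s hU hW hW₀ hz (nx_le j) (nx_le i)
    rw [fx_D, fx_D, fx_D, fx_D]
    exact h.trans (jW 2 (by norm_num) (by norm_num)).2.2
  b1 i := by
    rw [fx_D]
    exact (dd1 hU hW₀ hz (nx_le i)).trans (jW 1 le_rfl (by norm_num)).2.1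
  b2 i j := by
    rw [fx_D, fx_D]
    exact (dd2 hU hW₀ hz (nx_le j) (nx_le i)).trans (jW 2 (by norm_num) (by norm_num)).2.1

theorem cl_sy (hU : IsOpen U) (h₂ : N3 O₂ ε ε ε ε s) (hW : Sm U W) (hW₀ : Sm U W₀)
    (hz : z ∈ U) (hz2 : z.2 ∈ O₂) (o₂ : IsOpen O₂) (hv : |v z| ≤ ε) (jW : Jt 4 B ε W W₀ z) :
    Cl (fy n) (sy s) v W W₀ ε B z where
  s0 i j := h₂.b0 z.2 hz2 i j
  s1 k i j := by
    have h := h₂.b1 z.2 hz2 k i j
    have e : (fy n).D k ((sy s).s i j) z = 1 * pd k (fun x => s x i j) z.2 :=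
      Dy_snd (r := fun _ => 1) (s := fun _ => 1) (df_of o₂ (h₂.sm i j) hz2) k
    rw [e, one_mul]
    exact h
  v0 := hv
  w1 i := by
    have h := dd1s hU hW hW₀ hz (ny_le i)
    rw [fy_D, fy_D]
    exact h.trans (jW 1 le_rfl (by norm_num)).2.2
  w2 i j := by
    have h := dd2s hU hW hW₀ hz (ny_le j) (ny_le i)
    rw [fy_D, fy_D, fy_D, fy_D]
    exact h.trans (jW 2 (by norm_num) (by norm_num)).2.2
  b1 i := by
    rw [fy_D]
    exact (dd1 hU hW₀ hz (ny_le i)).trans (jW 1 le_rfl (by norm_num)).2.1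
  b2 i j := by
    rw [fy_D, fy_D]
    exact (dd2 hU hW₀ hz (ny_le j) (ny_le i)).trans (jW 2 (by norm_num) (by norm_num)).2.1

theorem XX_sx {a : VV n → ℝ} (hU : IsOpen U) (hW : Sm U W) (hW₀ : Sm U W₀) (hz : z ∈ U)
    (jW : Jt 4 B ε W W₀ z) (i : Fin n) :
    |Ch.XX (sx s) W a z i - Ch.XX (fx n) W₀ a z i| ≤ ε * |a z| := by
  have h := (dd1s hU hW hW₀ hz (nx_le i)).trans (jW 1 le_rfl (by norm_num)).2.2
  have e : Ch.XX (sx s) W a z i - Ch.XX (fx n) W₀ a z i =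
      (fderiv ℝ W z (Pi.single i 1, 0) - fderiv ℝ W₀ z (Pi.single i 1, 0)) * a z := by
    unfold Ch.XX
    rw [sx_D, sx_D, fx_D, fx_D, fx_D]
    simp only [dx]
    ring
  rw [e, abs_mul]
  exact mul_le_mul_of_nonneg_right h (abs_nonneg _)

theorem XX_sy {a : VV n → ℝ} (hU : IsOpen U) (hW : Sm U W) (hW₀ : Sm U W₀) (hz : z ∈ U)
    (jW : Jt 4 B ε W W₀ z) (i : Fin n) :
    |Ch.XX (sy s) W a z i - Ch.XX (fy n) W₀ a z i| ≤ ε * |a z| := by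
  have h := (dd1s hU hW hW₀ hz (ny_le i)).trans (jW 1 le_rfl (by norm_num)).2.2
  have e : Ch.XX (sy s) W a z i - Ch.XX (fy n) W₀ a z i =
      (fderiv ℝ W z (0, Pi.single i 1) - fderiv ℝ W₀ z (0, Pi.single i 1)) * a z := by
    unfold Ch.XX
    rw [sy_D, sy_D, fy_D, fy_D, fy_D]
    simp only [dy]
    ring
  rw [e, abs_mul]
  exact mul_le_mul_of_nonneg_right h (abs_nonneg _)

/-! ## The squares -/

theorem SqC.mono {E ι : Type*} [NormedAddCommGroup E] [NormedSpace ℝ E] [Fintype ι]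
    [MeasureSpace E] [FiniteDimensional ℝ E] [BorelSpace E]
    [(volume : Measure E).IsAddHaarMeasure] {σ σ₀ : Sl E ι} {U : Set E} {θ v v' W W₀ χ o : E → ℝ}
    {e e' : ℝ} (hU : IsOpen U) (hθ : ∀ z ∈ U, 0 < θ z) (ho : ∀ z ∈ U, 0 ≤ o z) (h : e ≤ e')
    (S : SqC σ σ₀ U θ v v' W W₀ χ o e) : SqC σ σ₀ U θ v v' W W₀ χ o e' := by
  intro f hf
  refine (S f hf).trans (mul_le_mul_of_nonneg_right h (add_nonneg ?_ ?_))
  · exact In_nonneg hU hθ fun z _ => mul_nonneg (sq_nonneg _) (sq_nonneg _)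
  · exact In_nonneg hU hθ fun z hz => mul_nonneg (ho z hz) (sq_nonneg _)

/-- The closeness at `z`. -/
structure CW (B ε : ℝ) (v₁ v₂ W W₀ : VV n → ℝ) (z : VV n) : Prop where
  v1 : |v₁ z| ≤ ε
  v2 : |v₂ z| ≤ ε
  n1 : Nk 1 v₁ z ≤ ε
  n2 : Nk 1 v₂ z ≤ ε
  jW : Jt 4 B ε W W₀ z

/-- **Transfer of a zone inequality from the flat slots.** -/
theorem pert_xy (n : ℕ) (B : ℝ) (hB : 1 ≤ B) : ∃ C : ℝ, 1 ≤ C ∧
    ∀ (O₁ O₂ : Set (V n)) (U : Set (VV n)) (s₁ s₂ : MF n) (v₁ v₂ W W₀ χ ψ o o' : VV n → ℝ)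
      (p q : Q8 (VV n)) (ε κ κ' : ℝ), IsOpen O₁ → IsOpen O₂ → IsOpen U →
      (∀ z ∈ U, z.1 ∈ O₁) → (∀ z ∈ U, z.2 ∈ O₂) →
      (∀ x i j, s₁ x i j = s₁ x j i) → (∀ x i j, s₂ x i j = s₂ x j i) →
      N3 O₁ ε ε ε ε s₁ → N3 O₂ ε ε ε ε s₂ → Sm U v₁ → Sm U v₂ → Sm U W → Sm U W₀ →
      H912.Cw.Cu (fx n) U χ o → H912.Cw.Cu (fy n) U χ o →
      H912.Cw.Cu (fx n) U ψ o' → H912.Cw.Cu (fy n) U ψ o' →
      0 < ε → C * ε ≤ 1 / 2 → C * ε ≤ κ → κ ≤ 1 → 0 ≤ κ' → p.Ct U → q.Ct U →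
      (∀ z ∈ U, p.κ z = κ * χ z ^ 2) → (∀ z ∈ U, q.κ z ≤ κ' * ψ z ^ 2) →
      (∀ z ∈ U, 0 ≤ p.ζ₁ z ∧ 0 ≤ p.ζ₂ z ∧ 0 ≤ p.ζy z) →
      (∀ z ∈ U, 0 ≤ q.ζ₁ z ∧ 0 ≤ q.ζ₂ z ∧ 0 ≤ q.ζy z) →
      (∀ z ∈ U, CW B ε v₁ v₂ W W₀ z ∨ (χ z = 0 ∧ ψ z = 0 ∧
        p.ζ₁ z = 0 ∧ p.ζ₂ z = 0 ∧ p.ζy z = 0 ∧ q.ζ₁ z = 0 ∧ q.ζ₂ z = 0 ∧ q.ζy z = 0)) →
      Zone (fx n) (fy n) U (fun _ => 1) (fun _ => 0) (fun _ => 0) W₀ χ p q →
      Zone (sx s₁) (sy s₂) U (fun _ => 1) v₁ v₂ W χ (mgT (C * ε) κ χ p)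
        (coT (C * ε) κ' n χ ψ o o' p q) := by
  have := Ch.haar_VV (n := n)
  obtain ⟨C, hC, hsta⟩ := sta_flat n B
  refine ⟨max 1 (max C (cT (Fin n) B)), le_max_left _ _, ?_⟩
  set K := max 1 (max C (cT (Fin n) B)) with hK
  have K1 : 1 ≤ K := le_max_left _ _
  have K2 : C ≤ K := (le_max_left _ _).trans (le_max_right _ _)
  have K3 : cT (Fin n) B ≤ K := (le_max_right _ _).trans (le_max_right _ _)
  intro O₁ O₂ U s₁ s₂ v₁ v₂ W W₀ χ ψ o o' p q ε κ κ' o₁ o₂ oU u₁ u₂ y₁ y₂ h₁ h₂ hv₁ hv₂ hW hW₀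
    cx cy cx' cy' e0 e1 eκ κ1 κ0 cp cq kp kq p0 q0 hcl zone
  have ε1 : ε ≤ 1 := by nlinarith
  have ok := ok_sx o₁ oU u₁ h₁.sm y₁
  have ot := ok_sy o₂ oU u₂ h₂.sm y₂
  have ok₀ := ok_fx (n := n) oU
  have ot₀ := ok_fy (n := n) oU
  have z0 : Sm U fun _ : VV n => (0 : ℝ) := contDiffOn_const
  have θ0 : ∀ z ∈ U, (0 : ℝ) < (fun _ : VV n => (1 : ℝ)) z := fun _ _ => one_pos
  have on : ∀ {χ o : VV n → ℝ}, H912.Cw.Cu (fx n) U χ o → ∀ z ∈ U, 0 ≤ o z := fun h z hz =>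
    (sq_nonneg _).trans (h.h0 z hz)
  have cw : ∀ z ∈ U, χ z ≠ 0 → CW B ε v₁ v₂ W W₀ z := fun z hz h0 =>
    (hcl z hz).resolve_right fun h => h0 h.1
  have cw' : ∀ z ∈ U, ψ z ≠ 0 → CW B ε v₁ v₂ W W₀ z := fun z hz h0 =>
    (hcl z hz).resolve_right fun h => h0 h.2.1
  have fx1 : Fintype.card (Fin n) = n := Fintype.card_fin n
  have sq_x : ∀ {χ o : VV n → ℝ}, H912.Cw.Cu (fx n) U χ o →
      (∀ z ∈ U, χ z ≠ 0 → CW B ε v₁ v₂ W W₀ z) →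
      SqC (sx s₁) (fx n) U (fun _ => 1) v₁ (fun _ => 0) W W₀ χ o (K * ε) := by
    intro χ o hc hw
    refine SqC.mono oU θ0 (on hc) (e := cT (Fin n) B * ε)
      (mul_le_mul_of_nonneg_right K3 e0.le) ?_
    intro f hf
    exact H912.Cw.sq_main ok₀ (flt_x oU) ok hc hv₁ hW hW₀ e0 ε1 hB
      (fun f z _ => P_sx v₁ W f z) (fun f z _ => P_fx W₀ f z)
      (fun z hz h0 => cl_sx oU h₁ hW hW₀ hz (u₁ z hz) o₁ (hw z hz h0).v1 (hw z hz h0).jW) f hf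
  have sq_y : ∀ {χ o : VV n → ℝ}, H912.Cw.Cu (fy n) U χ o → (∀ z ∈ U, 0 ≤ o z) →
      (∀ z ∈ U, χ z ≠ 0 → CW B ε v₁ v₂ W W₀ z) →
      SqC (sy s₂) (fy n) U (fun _ => 1) v₂ (fun _ => 0) W W₀ χ o (K * ε) := by
    intro χ o hc hn hw
    refine SqC.mono oU θ0 hn (e := cT (Fin n) B * ε)
      (mul_le_mul_of_nonneg_right K3 e0.le) ?_
    intro f hf
    exact H912.Cw.sq_main ot₀ (flt_y oU) ot hc hv₂ hW hW₀ e0 ε1 hB
      (fun f z _ => P_sy v₂ W f z) (fun f z _ => P_fy W₀ f z)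
      (fun z hz h0 => cl_sy oU h₂ hW hW₀ hz (u₂ z hz) o₂ (hw z hz h0).v2 (hw z hz h0).jW) f hf
  have eK : ε ≤ K * ε := le_mul_of_one_le_left e0.le K1
  have main := zone_pert ok ot ok₀ ot₀ hv₁ hv₂ z0 z0 hW hW₀ cx.sm cx'.sm cx.ct cx'.ct (on cx)
    (on cx') (mul_pos (by linarith) e0) e1 eκ κ1 κ0 cp cq kp kq p0 q0 (sq_x cx cw)
    (sq_y cy (on cx) cw) (sq_x cx' cw') (sq_y cy' (on cx') cw') ?_ ?_ zone
  · rwa [fx1] at main
  · intro a b _ _ z hz h0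
    have w := cw z hz h0
    have h := hsta O₁ O₂ U s₁ s₂ v₁ v₂ W W₀ ε o₁ o₂ oU h₁ h₂ hv₁ hv₂ hW hW₀ e0.le ε1 z hz
      (u₁ z hz) (u₂ z hz) w.n1 w.n2 w.jW a b
    refine h.trans ?_
    have k1 := Q8.nX_nonneg (sx s₁) W a z
    have k2 := Q8.nX_nonneg (sy s₂) W b z
    have k3 : 0 ≤ ε * (nX (sx s₁) W a z + nX (sy s₂) W b z + a z ^ 2 + b z ^ 2) := by positivity
    calc C * (ε * (nX (sx s₁) W a z + nX (sy s₂) W b z + a z ^ 2 + b z ^ 2)) ≤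
        K * (ε * (nX (sx s₁) W a z + nX (sy s₂) W b z + a z ^ 2 + b z ^ 2)) :=
          mul_le_mul_of_nonneg_right K2 k3
      _ = _ := by ring
  · intro z hz
    rcases hcl z hz with w | h
    · refine Or.inr fun a => ⟨fun i => ?_, fun i => ?_⟩
      · exact (XX_sx oU hW hW₀ hz w.jW i).trans (mul_le_mul_of_nonneg_right eK (abs_nonneg _))
      · exact (XX_sy oU hW hW₀ hz w.jW i).trans (mul_le_mul_of_nonneg_right eK (abs_nonneg _))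
    · exact Or.inl h.2.2

/-! ## The form on the whole space -/

/-- Tensors close to the identity, from the norms of the iterated derivatives. -/
theorem n3_of (sm : ∀ i j, ContDiff ℝ ∞ fun x => s x i j)
    (h : ∀ i j, ∀ m ≤ 3, ∀ x,
      ‖iteratedFDeriv ℝ m (fun x => s x i j - (1 : Matrix (Fin n) (Fin n) ℝ) i j) x‖ ≤ ε) :
    N3 (univ : Set (V n)) ε ε ε ε s := by
  have hs : ∀ i j, Sm (univ : Set (V n)) fun x => s x i j := fun i j => (sm i j).contDiffOn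
  have hc : ∀ i j, Sm (univ : Set (V n)) fun _ => (1 : Matrix (Fin n) (Fin n) ℝ) i j :=
    fun _ _ => contDiffOn_const
  have key : ∀ (i j : Fin n) (l : List (V n)), l ≠ [] → l.length ≤ 3 → (∀ v ∈ l, ‖v‖ ≤ 1) →
      ∀ x, |DG l (fun y => s y i j) x| ≤ ε := by
    intro i j l h0 h3 hv x
    have e1 := DG_sub isOpen_univ (hs i j) (hc i j) l x (mem_univ _)
    have e2 : ∀ (l : List (V n)) (c : ℝ), l ≠ [] → DG l (fun _ => c) = fun _ => 0 := by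
      intro l c
      induction l with
      | nil => intro h; exact absurd rfl h
      | cons v l ih =>
        intro _
        by_cases hl : l = []
        · subst hl
          funext z
          simp [DG]
        · funext z
          simp [DG, ih hl]
    rw [e2 l _ h0, sub_zero] at e1
    rw [← e1]
    exact (DG_le isOpen_univ ((hs i j).sub (hc i j)) hv (mem_univ x)).trans (h i j _ h3 x)
  have he : ∀ k : Fin n, ‖(Pi.single k 1 : V n)‖ ≤ 1 := fun k => by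
    rw [Pi.norm_single, norm_one]
  refine ⟨hs, fun x _ i j => ?_, fun x _ k i j => ?_, fun x _ l k i j => ?_,
    fun x _ m l k i j => ?_⟩
  · have := h i j 0 (by norm_num) x
    rwa [norm_iteratedFDeriv_zero, Real.norm_eq_abs] at this
  · exact key i j [Pi.single k 1] (by simp) (by simp) (by simp [he]) x
  · exact key i j [Pi.single l 1, Pi.single k 1] (by simp) (by simp) (by simp [he]) x
  · exact key i j [Pi.single m 1, Pi.single l 1, Pi.single k 1] (by simp) (by simp)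
      (by simp [he]) x

end Vale.Agent.P088.R2.H354.E
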